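import Vale.Agent.P064.Main

/-!
The spread inequality of the second Kahn-Kalai conjecture for all forests.
-/

namespace Vale.Agent.Results.P064.ForestSpread

/-- There is a universal constant `L` such that the following holds. Let `H` be a forest on at most
`n` vertices and let `q ≥ 0` be such that the expected number of copies of every subgraph `G'` of
`H` in the random graph `G(n,q)`, namely `N(K_n, G') * q ^ e(G')`, is at least `1/2`. Then for every
graph `F`, the number `N(H, F)` of copies of `F` in `H` is at most the expected number of copies of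
`F` in `G(n, min(1, L q))`, namely `N(K_n, F) * min(1, L q) ^ e(F)`. -/
theorem result : ∃ L : ℝ, 0 < L ∧ ∀ (n : ℕ) (V W : Type) [Fintype V] [Fintype W]
    (H : SimpleGraph V) (F : SimpleGraph W) (q : ℝ),
    H.IsAcyclic → Fintype.card V ≤ n → 0 ≤ q →
    (∀ G' : H.Subgraph, (1 / 2 : ℝ) ≤
      ((⊤ : SimpleGraph (Fin n)).copyCount G'.coe : ℝ) * q ^ G'.coe.edgeSet.ncard) →
    (H.copyCount F : ℝ) ≤
      ((⊤ : SimpleGraph (Fin n)).copyCount F : ℝ) * (min 1 (L * q)) ^ F.edgeSet.ncard :=
  ⟨Vale.Agent.P064.LL, Vale.Agent.P064.LL_pos,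
    fun n _ _ _ _ H F q hH hV hq hE => Vale.Agent.P064.spread_forest n H hH hV q hq hE F⟩

end Vale.Agent.Results.P064.ForestSpread
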