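import Vale.Agent.P064L.Final

/-!
The spread inequality of the second Kahn-Kalai conjecture for all host graphs, with a logarithmic
loss.
-/

namespace Vale.Agent.Results.P064.LogSpread

/-- There is a universal constant `C` such that the following holds for all `n ≥ 2`. Let `H` be a
graph on at most `n` vertices and let `q ≥ 0` be such that the expected number of copies of every
subgraph `G'` of `H` in the random graph `G(n,q)`, namely `N(K_n, G') * q ^ e(G')`, is at least
`1/2`. Then for every graph `F`, the number `N(H, F)` of copies of `F` in `H` is at most the expected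
number of copies of `F` in `G(n, min(1, C log(n) q))`, namely
`N(K_n, F) * min(1, C log(n) q) ^ e(F)`. -/
theorem result : ∃ C : ℝ, 0 < C ∧ ∀ (n : ℕ) (V W : Type) [Fintype V] [Fintype W]
    (H : SimpleGraph V) (F : SimpleGraph W) (q : ℝ),
    2 ≤ n → Fintype.card V ≤ n → 0 ≤ q →
    (∀ G' : H.Subgraph, (1 / 2 : ℝ) ≤
      ((⊤ : SimpleGraph (Fin n)).copyCount G'.coe : ℝ) * q ^ G'.coe.edgeSet.ncard) →
    (H.copyCount F : ℝ) ≤
      ((⊤ : SimpleGraph (Fin n)).copyCount F : ℝ) *
        (min 1 (C * Real.log n * q)) ^ F.edgeSet.ncard :=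
  ⟨Vale.Agent.P064L.CC, Vale.Agent.P064L.CC_pos,
    fun n _ _ _ _ H F q hn hV hq hE => Vale.Agent.P064L.spread_general n hn H hV q hq hE F⟩

end Vale.Agent.Results.P064.LogSpread
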