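import Vale.Agent.P064P.Main

/-!
The threshold of containment of a graph is at most `C log² n` times its expectation threshold.
-/

namespace Vale.Agent.Results.P064.PcLogSquare

open Vale.Agent.P064P

/-- There is a universal constant `C` such that for all `n ≥ 2` and every graph `H` on at most `n`
vertices, `p_c(n,H) ≤ C (log n)² p_E(n,H)`. Here `pcrit n H` is the least `p` in `[0,1]` such that
the random graph `G(n,p)`, whose probability weights are written out in `gnpProb`, contains a copy
of `H` with probability at least `1/2`, and `pexp n H` is the least `p` in `[0,1]` such that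
`N(K_n,F) p ^ e(F)`, the expected number of copies of `F` in `G(n,p)`, is at least `1/2` for every
subgraph `F` of `H`. -/
theorem result : ∃ C : ℝ, 0 < C ∧ ∀ (n : ℕ) (V : Type) [Fintype V] (H : SimpleGraph V),
    2 ≤ n → Fintype.card V ≤ n → pcrit n H ≤ C * Real.log n ^ 2 * pexp n H := by
  refine ⟨80 * Vale.Agent.P064L.CC, by
    have := Vale.Agent.P064L.CC_pos
    positivity, ?_⟩
  intro n V _ H hn hV
  have hlog : 0 < Real.log n := Real.log_pos (by
    have : (2 : ℝ) ≤ n := by exact_mod_cast hn
    linarith)
  have hL : 0 < Vale.Agent.P064L.CC * Real.log n := mul_pos Vale.Agent.P064L.CC_pos hlog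
  have h1 := pcrit_le_of_spread H hV hL (fun q hq0 hq W _ F =>
    Vale.Agent.P064L.spread_general n hn H hV q hq0 hq F)
  have h2 := log_count_le hn
  have h3 : 0 ≤ pexp n H := by
    apply Real.sInf_nonneg
    intro p hp
    exact hp.1
  refine h1.trans ?_
  apply mul_le_mul_of_nonneg_right _ h3
  have h4 := Vale.Agent.P064L.CC_pos
  calc 16 * (Vale.Agent.P064L.CC * Real.log n) * ((Nat.log 2 (n.choose 2) : ℝ) + 1)
      ≤ 16 * (Vale.Agent.P064L.CC * Real.log n) * (5 * Real.log n) :=
        mul_le_mul_of_nonneg_left h2 (by positivity)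
    _ = _ := by ring

end Vale.Agent.Results.P064.PcLogSquare
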